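import Vale.Agent.P032.Net.H672.NoD
import Vale.Agent.P032.R2.H306.Loc.LNet

/-!
# P032: there is no network of two-pair centres, local form

The proofs of helper672 (`Net/H672/DNet.lean`, `End.lean`, `NoD.lean`) with the facts restricted to
the centres in a set `G`: no centre all of whose neighbours at distance at most `12` are in `G` has
ends of complementary types.
-/

open Complex Set

set_option linter.dupNamespace false

namespace Vale.Agent.P032.R2.H306.Loc

open Vale.Agent.P032.Net.H672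
open Vale.Agent.P032.Net.H672.DNet (mid_swap sign_iff)

/-- the facts on palettes and arcs at the two-pair centres -/
structure DNetG (G : ℂ → Prop) (T : ℂ → Set (Fin 6)) (E : ℂ → ℂ → Prop) (A : ℂ → ℂ → ℂ → Prop)
    (o : ℂ → ℂ → ℝ) (inn : ℂ → ℂ → Fin 6) : Prop where
  net : ∀ X : Set (Fin 6), NetG G (fun z v => E z v ∧ T v = X) (fun z q => E z q ∧ T q = Xᶜ)
  card_z : ∀ {z v}, E z v → (T z).ncard = 4
  card_v : ∀ {z v}, E z v → (T v).ncard = 3
  card_i : ∀ {z v}, E z v → (T v ∩ T z).ncard = 2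
  cov : ∀ {z v q}, E z v → E z q → T q = (T v)ᶜ → ∀ i, i ∈ T z ∨ i ∈ T (v + q - z)
  ori : ∀ {z v}, E z v → o z v = 1 ∨ o z v = -1
  inn_mem : ∀ {z v}, E z v → inn z v ∈ T v ∩ T z
  /-- the arc of `z` at `v` is inside the disc about `w = v + q - z` iff the inner colour of the
  arc of `w` at `v` is the colour common to `z` and `w` -/
  LP1 : ∀ {z v q}, E z v → E z q → T q = (T v)ᶜ →
    (0 < o z v * dt (z - v) (q - z) ↔ inn (v + q - z) v ∈ T z)
  /-- ends of one pair on both sides of a line through an end of the other pair -/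
  LP2 : ∀ {z q v v'}, Full T E z q → Full T E z v → Full T E z v' → T v ∩ T z = T z \ T q →
    T v' ∩ T z = T z \ T q →
    (inn z v = inn z v' ↔ 0 < dt (q - z) (v - z) * dt (q - z) (v' - z))
  /-- the third edge at a vertex -/
  LP3 : ∀ {z v q c p}, E z v → E z q → T q = (T v)ᶜ → E c v → E c p → T p = (T v)ᶜ →
    c ≠ z → c ≠ v + q - z → ∃ a b : ℝ, 0 ≤ a ∧ 0 ≤ b ∧
      ((o c v : ℝ) : ℂ) * (c - v) + (a : ℂ) * (((o z v : ℝ) : ℂ) * (z - v))
        + (b : ℂ) * (((o (v + q - z) v : ℝ) : ℂ) * (q - z)) = 0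
  arc_ex : ∀ {z v}, Full T E z v → ∃ v', A z v v'
  arc_end : ∀ {z v v'}, Full T E z v → A z v v' → E z v'
  arc_pair : ∀ {z v v'}, Full T E z v → A z v v' → T v' ∩ T z = T v ∩ T z
  arc_len : ∀ {z v v'}, Full T E z v → A z v v' → ∃ l : ℝ, 0 < l ∧ l ≤ Real.pi / 3 ∧
    v' - z = (v - z) * Complex.exp (-((o z v * l : ℝ) : ℂ) * I)
  arc_uniq : ∀ {z v v' v''}, Full T E z v → A z v v' → A z v v'' → v' = v''
  arc_symm : ∀ {z v v'}, Full T E z v → Full T E z v' → A z v v' → A z v' v
  arc_ori : ∀ {z v v'}, Full T E z v → Full T E z v' → A z v v' → o z v' = - o z v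
  arc_inn : ∀ {z v v'}, Full T E z v → Full T E z v' → A z v v' → inn z v' = inn z v
  /-- points with the palette of an end are ends -/
  auto : ∀ {z v q m}, E z v → E z q → T q = (T v)ᶜ → dist m z = 1 → T m = T v → E z m
  /-- the common points of two circles whose centres have all six colours -/
  common : ∀ {w v q w' v' q' m}, E w v → E w q → T q = (T v)ᶜ → E w' v' → E w' q' →
    T q' = (T v')ᶜ → w ≠ w' → (∀ i, i ∈ T w ∨ i ∈ T w') → dist m w = 1 → dist m w' = 1 →
    w + w' ≠ 2 * m → (T v ∩ T w ∩ T w').ncard = 1 → (T v' ∩ T w' ∩ T w).ncard = 1 →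
    (T m).ncard = 3 ∧
      (T m ∩ T w = T v ∩ T w ∨ T m ∩ T w = T q ∩ T w) ∧
      (T m ∩ T w' = T v' ∩ T w' ∨ T m ∩ T w' = T q' ∩ T w')
  /-- Lemma X -/
  lemX : ∀ {z u p r t}, E z u → dist p u = 1 → dist p r = 1 → t ∈ T r →
    T p ⊆ insert t (T u) → r = u ∨ r + u = 2 * p

variable {G : ℂ → Prop} {T : ℂ → Set (Fin 6)} {E : ℂ → ℂ → Prop} {A : ℂ → ℂ → ℂ → Prop}
    {o : ℂ → ℂ → ℝ} {inn : ℂ → ℂ → Fin 6}

namespace DNetG



variable {M v q q' : ℂ}

theorem exists_mid (D : DNetG G T E A o inn) {z : ℂ} (g : Gn G 3 z) (hv : E z v) (hq : E z q)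
    (e : T q = (T v)ᶜ) : ∃ M q', Mid T E M v q q' := by
  obtain ⟨M, q', hne, h1, h2, h3⟩ := (D.net (T v)).exists_middle (z := z) g ⟨hv, rfl⟩ ⟨hq, e⟩
  exact ⟨M, q', h1.1, h2.1, h3.1, h2.2, h3.2, hne⟩

theorem uniq_v (D : DNetG G T E A o inn) (g : Gn G 3 M) (m : Mid T E M v q q') {p : ℂ} (h : E M p)
    (e : T p = T v) : p = v :=
  ((D.net (T v)).middle_uniq g ⟨m.hv, rfl⟩ ⟨m.hq, m.e⟩ ⟨m.hq', m.e'⟩ m.ne).1 p ⟨h, e⟩

theorem uniq_q (D : DNetG G T E A o inn) (g : Gn G 3 M) (m : Mid T E M v q q') {p : ℂ} (h : E M p)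
    (e : T p = (T v)ᶜ) : p = q ∨ p = q' :=
  ((D.net (T v)).middle_uniq g ⟨m.hv, rfl⟩ ⟨m.hq, m.e⟩ ⟨m.hq', m.e'⟩ m.ne).2 p ⟨h, e⟩

theorem mid_side (D : DNetG G T E A o inn) (g : Gn G 3 M) (m : Mid T E M v q q') :
    ∃ v', Mid T E (v + q - M) q v v' := by
  obtain ⟨-, v', n1, s1, -⟩ :=
    (D.net (T v)).side (M := M) g ⟨m.hv, rfl⟩ ⟨m.hq, m.e⟩ ⟨m.hq', m.e'⟩ m.ne
  have w := (D.net (T v)).rh1 (z := M) (g.mono (by norm_num)) ⟨m.hv, rfl⟩ ⟨m.hq, m.e⟩
  refine ⟨v', w.2.1, w.1.1, s1.1, ?_, ?_, n1.symm⟩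
  · rw [m.e, compl_compl]
  · rw [m.e, compl_compl, s1.2]

theorem opp (D : DNetG G T E A o inn) (g : Gn G 3 M) (m : Mid T E M v q q') :
    dt (v - M) (q - M) * dt (v - M) (q' - M) < 0 :=
  (D.net (T v)).opp_sides g ⟨m.hv, rfl⟩ ⟨m.hq, m.e⟩ ⟨m.hq', m.e'⟩ m.ne

/-- **FLIP** -/
theorem flip_v (D : DNetG G T E A o inn) (g : Gn G 3 M) (m : Mid T E M v q q') :
    o (v + q - M) v = -o M v := by
  have w := (D.net (T v)).rh1 (z := M) (g.mono (by norm_num)) ⟨m.hv, rfl⟩ ⟨m.hq, m.e⟩
  have w' := (D.net (T v)).rh1 (z := M) (g.mono (by norm_num)) ⟨m.hv, rfl⟩ ⟨m.hq', m.e'⟩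
  have n1 : v + q' - M ≠ M := (D.net (T v)).ne_z (z := M) ⟨m.hv, rfl⟩ ⟨m.hq', m.e'⟩
  have n2 : v + q' - M ≠ v + q - M := fun h => m.ne (by linear_combination -h)
  obtain ⟨a, b, ha, hb, h⟩ := D.LP3 m.hv m.hq m.e w'.1.1 w'.2.1 m.e' n1 n2
  obtain ⟨β, γ, hβ, hγ, hg⟩ :=
    (D.net (T v)).between (M := M) g ⟨m.hv, rfl⟩ ⟨m.hq, m.e⟩ ⟨m.hq', m.e'⟩ m.ne
  have hqq := (D.net (T v)).dt_qq (M := M) (g.mono (by norm_num)) ⟨m.hv, rfl⟩ ⟨m.hq, m.e⟩ ⟨m.hq', m.e'⟩ m.ne
  refine (flip (g := M - v) (n := v + q - M - v) (n' := v + q' - M - v) (D.ori m.hv)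
    (D.ori w.1.1) (D.ori w'.1.1) ?_ hβ hγ hg ⟨a, b, 1, ha, hb, zero_le_one, by positivity,
      ?_⟩).1
  · rw [show v + q - M - v = q - M by ring, show v + q' - M - v = q' - M by ring]
    exact hqq
  · push_cast
    linear_combination I * h

theorem gside (D : DNetG G T E A o inn) {a b : ℕ} (g : Gn G b M) (m : Mid T E M v q q')
    (h : a + 1 ≤ b) : Gn G a (v + q - M) :=
  (D.net (T v)).gs g ⟨m.hv, rfl⟩ ⟨m.hq, m.e⟩ h

theorem flip_q (D : DNetG G T E A o inn) (g : Gn G 4 M) (m : Mid T E M v q q') :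
    o (v + q - M) q = -o M q := by
  obtain ⟨v', m'⟩ := D.mid_side (g.mono (by norm_num)) m
  have h := D.flip_v (D.gside g m (by norm_num)) m'
  rw [show q + v - (v + q - M) = M by ring] at h
  linarith

theorem be1 (D : DNetG G T E A o inn) (g : Gn G 3 M) (m : Mid T E M v q q') :
    inn M v ∈ T (v + q - M) ↔ o M v * dt (v - M) (q - M) < 0 := by
  obtain ⟨v', m'⟩ := D.mid_side g m
  have h := D.LP1 m'.hq m'.hv (by rw [m.e])
  rw [show v + q - (v + q - M) = M by ring, D.flip_v g m, show v + q - M - v = q - M by ring,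
    show q - (v + q - M) = -(v - M) by ring, dt_neg_right, dt_comm (v - M) (q - M)] at h
  rw [← h]
  constructor <;> intro h' <;> nlinarith

theorem be2 (D : DNetG G T E A o inn) (g : Gn G 4 M) (m : Mid T E M v q q') :
    inn M q ∈ T (v + q - M) ↔ 0 < o M q * dt (v - M) (q - M) := by
  obtain ⟨v', m'⟩ := D.mid_side (g.mono (by norm_num)) m
  have h := D.LP1 m'.hv m'.hq m'.e
  rw [show q + v - (v + q - M) = M by ring, D.flip_q g m, show v + q - M - q = v - M by ring,
    show v - (v + q - M) = -(q - M) by ring, dt_neg_right] at h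
  rw [← h]
  constructor <;> intro h' <;> nlinarith

theorem cov' (D : DNetG G T E A o inn) (m : Mid T E M v q q') (i : Fin 6) :
    i ∈ T M ∨ i ∈ T (v + q - M) := D.cov m.hv m.hq m.e i

/-- **(al)** the two side centres do not have all six colours -/
theorem al (D : DNetG G T E A o inn) (g : Gn G 4 M) (m : Mid T E M v q q') :
    ∃ i, i ∉ T (v + q - M) ∧ i ∉ T (v + q' - M) := by
  by_contra hcon
  push Not at hcon
  have hall : ∀ i, i ∈ T (v + q - M) ∨ i ∈ T (v + q' - M) := fun i =>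
    or_iff_not_imp_left.2 (hcon i)
  obtain ⟨v1, m1⟩ := D.mid_side (g.mono (by norm_num)) m
  obtain ⟨v2, m2⟩ := D.mid_side (g.mono (by norm_num)) (mid_swap m)
  have hqq := (D.net (T v)).dt_qq (M := M) (g.mono (by norm_num)) ⟨m.hv, rfl⟩ ⟨m.hq, m.e⟩ ⟨m.hq', m.e'⟩ m.ne
  have hneq : v + q - M ≠ v + q' - M := fun h => m.ne (by linear_combination h)
  have dq : dist q M = 1 := (D.net (T v)).dist_c (z := M) ⟨m.hq, m.e⟩
  have dq' : dist q' M = 1 := (D.net (T v)).dist_c (z := M) ⟨m.hq', m.e'⟩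
  set p : ℂ := v + q + q' - 2 * M with hp
  have d1 : dist p (v + q - M) = 1 := by
    rw [dist_eq_norm, show p - (v + q - M) = q' - M by rw [hp]; ring, ← dist_eq_norm, dq']
  have d2 : dist p (v + q' - M) = 1 := by
    rw [dist_eq_norm, show p - (v + q' - M) = q - M by rw [hp]; ring, ← dist_eq_norm, dq]
  have n2 : (v + q - M) + (v + q' - M) ≠ 2 * p := by
    intro h
    apply hqq
    have : q' - M = -(q - M) := by rw [hp] at h; linear_combination -h
    rw [this, dt_neg_right, dt_self, neg_zero]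
  have npv : p ≠ v := by
    intro h
    apply n2
    rw [h]
    rw [hp] at h
    linear_combination h
  obtain ⟨h3, hA, hB⟩ := D.common m1.hq m1.hv (by rw [m.e]) m2.hq m2.hv (by rw [m.e']) hneq hall
    d1 d2 n2 (inter_one (D.card_v m.hv) (D.card_i m1.hq) (D.card_i m2.hq) hall)
    (inter_one (D.card_v m.hv) (D.card_i m2.hq) (D.card_i m1.hq) fun i => (hall i).symm)
  have hcov : ∀ i, i ∈ T p ↔ i ∈ T p ∩ T (v + q - M) ∨ i ∈ T p ∩ T (v + q' - M) := by
    intro i
    constructor
    · intro hi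
      rcases hall i with h | h
      · exact Or.inl ⟨hi, h⟩
      · exact Or.inr ⟨hi, h⟩
    · rintro (h | h) <;> exact h.1
  rcases hA with hA | hA <;> rcases hB with hB | hB
  · -- the type of `v`
    have hT : T p = T v := by
      ext i
      rw [hcov, hA, hB]
      constructor
      · rintro (h | h) <;> exact h.1
      · intro hi
        rcases hall i with h | h
        · exact Or.inl ⟨hi, h⟩
        · exact Or.inr ⟨hi, h⟩
    have e1 : E (v + q - M) p := D.auto m1.hq m1.hv (by rw [m.e]) d1 hT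
    have e2 : E (v + q' - M) p := D.auto m2.hq m2.hv (by rw [m.e']) d2 hT
    have := (D.net (T v)).sides (M := M) (g.mono (by norm_num)) ⟨m.hv, rfl⟩ ⟨m.hq, m.e⟩ ⟨m.hq', m.e'⟩ m.ne
      ⟨e1, hT⟩ npv ⟨e2, hT⟩ npv
    nlinarith [mul_self_nonneg (dt (M - v) (p - v))]
  · exfalso
    have hdis : Disjoint (T p ∩ T (v + q - M)) (T p ∩ T (v + q' - M)) := by
      rw [hA, hB, m.e', Set.disjoint_left]
      rintro i ⟨h, -⟩ ⟨h', -⟩
      exact h' h
    have hc : (T p).ncard = (T p ∩ T (v + q - M)).ncard + (T p ∩ T (v + q' - M)).ncard := by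
      rw [← ncard_union_eq hdis (toFinite _) (toFinite _)]
      congr 1
      ext i
      exact hcov i
    rw [hA, hB, D.card_i m1.hq, D.card_i m2.hv, h3] at hc
    omega
  · exfalso
    have hdis : Disjoint (T p ∩ T (v + q - M)) (T p ∩ T (v + q' - M)) := by
      rw [hA, hB, m.e, Set.disjoint_left]
      rintro i ⟨h, -⟩ ⟨h', -⟩
      exact h h'
    have hc : (T p).ncard = (T p ∩ T (v + q - M)).ncard + (T p ∩ T (v + q' - M)).ncard := by
      rw [← ncard_union_eq hdis (toFinite _) (toFinite _)]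
      congr 1
      ext i
      exact hcov i
    rw [hA, hB, D.card_i m1.hv, D.card_i m2.hq, h3] at hc
    omega
  · -- the type of `q`
    have hT : T p = T q := by
      ext i
      rw [hcov, hA, hB, m.e, m.e']
      constructor
      · rintro (h | h) <;> exact h.1
      · intro hi
        rcases hall i with h | h
        · exact Or.inl ⟨hi, h⟩
        · exact Or.inr ⟨hi, h⟩
    have e1 : E (v + q - M) p := D.auto m1.hv m1.hq m1.e d1 hT
    have e2 : E (v + q' - M) p := D.auto m2.hv m2.hq m2.e d2 (by rw [hT, m.e, m.e'])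
    have u1 := D.uniq_v (D.gside g m (by norm_num)) m1 e1 hT
    have u2 := D.uniq_v (D.gside g (mid_swap m) (by norm_num)) m2 e2 (by rw [hT, m.e, m.e'])
    exact m.ne (u1.symm.trans u2)

theorem opp' (D : DNetG G T E A o inn) (g : Gn G 3 M) (m : Mid T E M v q q') :
    (inn M v ∈ T (v + q - M) ↔ ¬ inn M v ∈ T (v + q' - M)) := by
  rw [D.be1 g m, D.be1 g (mid_swap m)]
  have h := D.opp g m
  rcases D.ori m.hv with ho | ho <;> rw [ho] <;> constructor <;> intro h1
  · nlinarith
  · by_contra h2; push Not at h1 h2; nlinarith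
  · nlinarith
  · by_contra h2; push Not at h1 h2; nlinarith

theorem inter_eq_diff (_D : DNetG G T E A o inn) {z v q : ℂ} (_h : E z v) (_h' : E z q)
    (e : T q = (T v)ᶜ) : T q ∩ T z = T z \ T v := by
  rw [e]
  ext i
  simp only [mem_inter_iff, mem_compl_iff, mem_sdiff]
  tauto

/-- **(be)**: the two arcs of the second kind at the middle centre have the same orientation -/
theorem ori_eq (D : DNetG G T E A o inn) (g : Gn G 4 M) (m : Mid T E M v q q') : o M q = o M q' := by
  obtain ⟨i, hi, hi'⟩ := D.al g m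
  obtain ⟨v1, m1⟩ := D.mid_side (g.mono (by norm_num)) m
  obtain ⟨v2, m2⟩ := D.mid_side (g.mono (by norm_num)) (mid_swap m)
  have hiM : i ∈ T M := (D.cov' m i).resolve_right hi
  have hop := D.opp' (g.mono (by norm_num)) m
  have hmv := D.inn_mem m.hv
  have hiv : i ∉ T v := by
    intro hiv
    by_cases hji : inn M v = i
    · rw [hji] at hop
      exact hi (hop.2 hi')
    · exact hop.1 (mem_of_ne (D.card_v m.hv) (D.card_i m1.hq) hiv hi hmv.1 hji)
        (mem_of_ne (D.card_v m.hv) (D.card_i m2.hq) hiv hi' hmv.1 hji)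
  have hiq : i ∈ T q := by rw [m.e]; exact hiv
  have hiq' : i ∈ T q' := by rw [m.e']; exact hiv
  have hq := D.inn_mem m.hq
  have hq' := D.inn_mem m.hq'
  have k1 : inn M q ∈ T (v + q - M) ↔ inn M q ≠ i :=
    ⟨fun h h' => hi (h' ▸ h), fun h => mem_of_ne (D.card_v m.hq) (D.card_i m1.hv) hiq hi hq.1 h⟩
  have k2 : inn M q' ∈ T (v + q' - M) ↔ inn M q' ≠ i :=
    ⟨fun h h' => hi' (h' ▸ h), fun h =>
      mem_of_ne (D.card_v m.hq') (D.card_i m2.hv) hiq' hi' hq'.1 h⟩
  have hop2 := D.opp (g.mono (by norm_num)) m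
  have hne : inn M q ≠ inn M q' := by
    intro h
    have := (D.LP2 m.fv m.fq m.fq' (D.inter_eq_diff m.hv m.hq m.e)
      (D.inter_eq_diff m.hv m.hq' m.e')).1 h
    linarith
  -- exactly one of the two inner colours is `i`
  have k3 : inn M q ≠ i ↔ ¬ inn M q' ≠ i := by
    constructor
    · intro h h'
      obtain ⟨x, y, hxy, hS⟩ := ncard_eq_two.1 (D.card_i m.hq)
      have a1 : i ∈ T q ∩ T M := ⟨hiq, hiM⟩
      have a3 : inn M q' ∈ T q ∩ T M := ⟨by rw [m.e, ← m.e']; exact hq'.1, hq'.2⟩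
      rw [hS] at a1 a3 hq
      simp only [mem_insert_iff, mem_singleton_iff] at a1 a3 hq
      rcases a1 with a1 | a1 <;> rcases hq with hq | hq <;> rcases a3 with a3 | a3 <;>
        first
          | exact h (hq.trans a1.symm)
          | exact h' (a3.trans a1.symm)
          | exact hne (hq.trans a3.symm)
    · intro h h'
      push Not at h
      exact hne (h'.trans h.symm)
  refine sign_iff (D.ori m.hq) (D.ori m.hq') hop2 ?_
  rw [← D.be2 g m, ← D.be2 g (mid_swap m), k1, k2]
  exact k3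

/-- **both networks**: the other ends of the arcs at a middle centre -/
theorem both (D : DNetG G T E A o inn) (g : Gn G 4 M) (m : Mid T E M v q q') {v' r r' : ℂ} (hv' : A M v v')
    (hr : A M q r) (hr' : A M q' r') :
    Mid T E M v' r r' ∧ T v' ≠ T v ∧ T r ≠ T q := by
  have ev' := D.arc_end m.fv hv'
  have er := D.arc_end m.fq hr
  have er' := D.arc_end m.fq' hr'
  have h1 : T v' ≠ T v := by
    intro h
    have := D.uniq_v (g.mono (by norm_num)) m ev' h
    rw [this] at hv'
    have h2 := D.arc_ori m.fv m.fv hv'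
    rcases D.ori m.hv with h3 | h3 <;> rw [h3] at h2 <;> norm_num at h2
  have key : ∀ {q r}, E M q → T q = (T v)ᶜ → A M q r →
      (∀ p, E M p → T p = T q → o M p = o M q) → T r ≠ T q := by
    intro q r hq e hr hall h
    have fq : Full T E M q := ⟨hq, v, m.hv, by rw [e, compl_compl]⟩
    have hre := D.arc_end fq hr
    have h2 := D.arc_ori fq ⟨hre, v, m.hv, by rw [h, e, compl_compl]⟩ hr
    rw [hall r hre h] at h2
    rcases D.ori hq with h3 | h3 <;> rw [h3] at h2 <;> norm_num at h2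
  have hoo := D.ori_eq g m
  have h2 : T r ≠ T q := key m.hq m.e hr (fun p hp h => by
    rcases D.uniq_q (g.mono (by norm_num)) m hp (h.trans m.e) with h' | h' <;> rw [h']
    exact hoo.symm)
  have h3 : T r' ≠ T q' := key m.hq' m.e' hr' (fun p hp h => by
    rcases D.uniq_q (g.mono (by norm_num)) m hp (h.trans m.e') with h' | h' <;> rw [h']
    exact hoo)
  have e1 : T r = (T v')ᶜ := type_swap_compl (D.card_v m.hv) (D.card_v ev') m.e
      (D.card_v er) (D.card_i m.hv) (D.card_i m.hq) (D.arc_pair m.fv hv') h1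
      (D.arc_pair m.fq hr) h2
  have e2 : T r' = (T v')ᶜ := type_swap_compl (D.card_v m.hv) (D.card_v ev') m.e'
      (D.card_v er') (D.card_i m.hv) (D.card_i m.hq') (D.arc_pair m.fv hv') h1
      (D.arc_pair m.fq' hr') h3
  refine ⟨⟨ev', er, er', e1, e2, ?_⟩, h1, h2⟩
  intro h
  subst h
  have fr : Full T E M r := ⟨er, v', ev', by rw [e1, compl_compl]⟩
  exact m.ne (D.arc_uniq fr (D.arc_symm m.fq fr hr) (D.arc_symm m.fq' fr hr'))

/-- an end of the type of the far end of the arc at `v` is this far end -/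
theorem uniq_far (D : DNetG G T E A o inn) (g : Gn G 4 M) (m : Mid T E M v q q') {v' p : ℂ} (hv' : A M v v')
    (hd : dist p M = 1) (h : T p = T v') : p = v' := by
  obtain ⟨r, hr⟩ := D.arc_ex m.fq
  obtain ⟨r', hr'⟩ := D.arc_ex m.fq'
  obtain ⟨b, -, -⟩ := D.both g m hv' hr hr'
  exact D.uniq_v (g.mono (by norm_num)) b (D.auto b.hv b.hq b.e hd h) h

/-- the colours of `w = v + q - M` and `w* = v' + r - M` -/
theorem far_cov (D : DNetG G T E A o inn) (g : Gn G 4 M) (m : Mid T E M v q q') {v' r r' : ℂ} (hv' : A M v v')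
    (hr : A M q r) (hr' : A M q' r') (i : Fin 6) :
    i ∈ T (v + q - M) ∨ i ∈ T (v' + r - M) := by
  obtain ⟨b, n1, n2⟩ := D.both g m hv' hr hr'
  have fv' : Full T E M v' := b.fv
  have fr : Full T E M r := b.fq
  obtain ⟨a1, m1⟩ := D.mid_side (g.mono (by norm_num)) m
  obtain ⟨a2, m2⟩ := D.mid_side (g.mono (by norm_num)) b
  have pv := D.arc_pair m.fv hv'
  have pr := D.arc_pair m.fq hr
  have iv := D.arc_inn m.fv fv' hv'
  have ir := D.arc_inn m.fq fr hr
  have ov := D.arc_ori m.fv fv' hv'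
  have or' := D.arc_ori m.fq fr hr
  -- `T v ∩ T M = T M \ T q` and so on
  have hqv : T v ∩ T M = T M \ T q := by
    rw [m.e]; ext i; simp only [mem_inter_iff, mem_compl_iff, mem_sdiff]; tauto
  have hvq : T q ∩ T M = T M \ T v := by
    rw [m.e]; ext i; simp only [mem_inter_iff, mem_compl_iff, mem_sdiff]; tauto
  have hv'q : T q ∩ T M = T M \ T v' := by
    rw [← pr, b.e]; ext i; simp only [mem_inter_iff, mem_compl_iff, mem_sdiff]; tauto
  have s1 : 0 < dt (q - M) (v - M) * dt (q - M) (v' - M) :=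
    (D.LP2 m.fq m.fv fv' hqv (pv.trans hqv)).1 iv.symm
  have s2 : 0 < dt (v' - M) (q - M) * dt (v' - M) (r - M) :=
    (D.LP2 fv' m.fq fr hv'q (pr.trans hv'q)).1 ir.symm
  have s3 : 0 < dt (v - M) (q - M) * dt (v' - M) (r - M) := by
    rw [dt_comm (v - M) (q - M), dt_comm (v' - M) (q - M)] at s1
    set x := dt (v - M) (q - M)
    set y := dt (v' - M) (q - M)
    set z := dt (v' - M) (r - M)
    have h1 : 0 < x * y := by linarith
    by_contra hcon
    push Not at hcon
    have h2 : 0 < (x * y) * (y * z) := mul_pos h1 s2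
    have h3 : (x * y) * (y * z) = (x * z) * y ^ 2 := by ring
    rw [h3] at h2
    nlinarith [sq_nonneg y]
  -- the inner colours
  have c1 : inn M v ∈ T (v' + r - M) ↔ ¬ inn M v ∈ T (v + q - M) := by
    have h1 := D.be1 (g.mono (by norm_num)) b
    rw [iv, ov] at h1
    rw [h1, D.be1 (g.mono (by norm_num)) m]
    rcases D.ori m.hv with ho | ho <;> rw [ho] <;> constructor <;> intro h
    · push Not; nlinarith
    · push Not at h; nlinarith
    · push Not; nlinarith
    · push Not at h; nlinarith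
  have c2 : inn M q ∈ T (v' + r - M) ↔ ¬ inn M q ∈ T (v + q - M) := by
    have h1 := D.be2 g b
    rw [ir, or'] at h1
    rw [h1, D.be2 g m]
    rcases D.ori m.hq with ho | ho <;> rw [ho] <;> constructor <;> intro h
    · push Not; nlinarith
    · push Not at h; nlinarith
    · push Not; nlinarith
    · push Not at h; nlinarith
  by_contra hcon
  push Not at hcon
  obtain ⟨hi, hi'⟩ := hcon
  have hiM : i ∈ T M := (D.cov' m i).resolve_right hi
  have hmv := D.inn_mem m.hv
  have hmq := D.inn_mem m.hq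
  have hmv' := D.inn_mem b.hv
  have hmr := D.inn_mem b.hq
  rw [iv] at hmv'
  rw [ir] at hmr
  by_cases hiv : i ∈ T v
  · have hiv' : i ∈ T v' := (pv.superset ⟨hiv, hiM⟩).1
    by_cases hji : inn M v = i
    · rw [hji] at c1
      exact hi' (c1.2 hi)
    · exact c1.1 (mem_of_ne (D.card_v b.hv) (D.card_i m2.hq) hiv' hi' hmv'.1 hji)
        (mem_of_ne (D.card_v m.hv) (D.card_i m1.hq) hiv hi hmv.1 hji)
  · have hiq : i ∈ T q := by rw [m.e]; exact hiv
    have hir : i ∈ T r := (pr.superset ⟨hiq, hiM⟩).1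
    by_cases hji : inn M q = i
    · rw [hji] at c2
      exact hi' (c2.2 hi)
    · exact c2.1 (mem_of_ne (D.card_v b.hq) (D.card_i m2.hv) hir hi' hmr.1 hji)
        (mem_of_ne (D.card_v m.hq) (D.card_i m1.hv) hiq hi hmq.1 hji)

/-- a common point of the circles about `w = v + q - M` and `w* = v' + r - M` is the far end of
the arc at `q` on the first one or the far end of the arc at `r` on the second one -/
theorem common_far (D : DNetG G T E A o inn) (g : Gn G 5 M) (m : Mid T E M v q q') {v' r r' : ℂ}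
    (hv' : A M v v') (hr : A M q r) (hr' : A M q' r') {x y p : ℂ}
    (hx : A (v + q - M) q x) (hy : A (v' + r - M) r y)
    (d1 : dist p (v + q - M) = 1) (d2 : dist p (v' + r - M) = 1)
    (n : (v + q - M) + (v' + r - M) ≠ 2 * p) : p = x ∨ p = y := by
  have g4 : Gn G 4 M := g.mono (by norm_num)
  obtain ⟨b, n1, n2⟩ := D.both g4 m hv' hr hr'
  obtain ⟨a1, m1⟩ := D.mid_side (g.mono (by norm_num)) m
  obtain ⟨a2, m2⟩ := D.mid_side (g.mono (by norm_num)) b
  have hall := D.far_cov g4 m hv' hr hr'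
  have pv := D.arc_pair m.fv hv'
  have pr := D.arc_pair m.fq hr
  have hne : v + q - M ≠ v' + r - M := by
    intro h
    have h4 := D.card_z m1.hv
    have : T (v + q - M) = univ := by
      ext i
      simp only [mem_univ, iff_true]
      rcases hall i with h' | h'
      · exact h'
      · rw [h]; exact h'
    rw [this, ncard_univ, Nat.card_eq_fintype_card, Fintype.card_fin] at h4
    omega
  -- outer colours of `M`
  obtain ⟨e, hev, heM⟩ := exists_out (D.card_v m.hv) (D.card_i m.hv)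
  obtain ⟨f, hfv', hfM⟩ := exists_out (D.card_v b.hv) (D.card_i b.hv)
  have hew : e ∈ T (v + q - M) := (D.cov' m e).resolve_left heM
  have hew' : e ∈ T (v' + r - M) := (D.cov' b e).resolve_left heM
  have hfw : f ∈ T (v + q - M) := (D.cov' m f).resolve_left hfM
  have hfw' : f ∈ T (v' + r - M) := (D.cov' b f).resolve_left hfM
  have hTv' : T v' = (T v ∩ T M) ∪ ((T v)ᶜ \ T M) :=
    type_swap (D.card_v m.hv) (D.card_v b.hv) (D.card_i m.hv)
      (by rw [← m.e]; exact D.card_i m.hq) pv n1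
  have hfv : f ∉ T v := by
    rw [hTv'] at hfv'
    rcases hfv' with h | h
    · exact absurd h.2 hfM
    · exact h.1
  have her : e ∈ T r := by
    rw [b.e, hTv']
    rintro (h | h)
    · exact heM h.2
    · exact h.1 hev
  have heq : e ∉ T q := by rw [m.e]; exact fun h => h hev
  have hev' : e ∉ T v' := by
    rw [hTv']
    rintro (h | h)
    · exact heM h.2
    · exact h.1 hev
  have hef : e ≠ f := by rintro rfl; exact hfv hev
  have hpair : ∀ {i : Fin 6}, i ∈ T (v + q - M) → i ∈ T (v' + r - M) → i = e ∨ i = f :=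
    inter_pair (D.card_z m1.hv) (D.card_z m2.hv) hall hew hew' hfw hfw' hef
  have hc1 : (T v ∩ T (v + q - M) ∩ T (v' + r - M)).ncard = 1 := by
    rw [ncard_eq_one]
    refine ⟨e, ?_⟩
    ext i
    constructor
    · rintro ⟨⟨h1, h2⟩, h3⟩
      rcases hpair h2 h3 with h | h
      · exact h
      · exact absurd (h ▸ h1) hfv
    · rintro rfl
      exact ⟨⟨hev, hew⟩, hew'⟩
  have hc2 : (T v' ∩ T (v' + r - M) ∩ T (v + q - M)).ncard = 1 := by
    rw [ncard_eq_one]
    refine ⟨f, ?_⟩
    ext i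
    constructor
    · rintro ⟨⟨h1, h2⟩, h3⟩
      rcases hpair h3 h2 with h | h
      · exact absurd (h ▸ h1) hev'
      · exact h
    · rintro rfl
      exact ⟨⟨hfv', hfw'⟩, hfw⟩
  obtain ⟨h3, hA, hB⟩ := D.common m1.hq m1.hv m.e m2.hq m2.hv b.e hne hall d1 d2 n hc1 hc2
  rcases hA with hA | hA <;> rcases hB with hB | hB
  · -- `f` would be in `T v`
    exfalso
    have h1 : f ∈ T p ∩ T (v' + r - M) := by rw [hB]; exact ⟨hfv', hfw'⟩
    have h2 : f ∈ T p ∩ T (v + q - M) := ⟨h1.1, hfw⟩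
    rw [hA] at h2
    exact hfv h2.1
  · -- type of `y`
    right
    have hn : T p ≠ T r := by
      -- an element of `T v ∩ T w` in `T M`
      obtain ⟨g, hg, hgM⟩ : ∃ g, g ∈ T v ∩ T (v + q - M) ∧ g ≠ e := by
        by_contra hcon
        push Not at hcon
        have : (T v ∩ T (v + q - M)).ncard ≤ ({e} : Set (Fin 6)).ncard :=
          ncard_le_ncard (fun g hg => hcon g hg) (toFinite _)
        rw [ncard_singleton, D.card_i m1.hq] at this
        omega
      intro h
      have hgp : g ∈ T p ∩ T (v + q - M) := by rw [hA]; exact hg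
      have hgr : g ∈ T r := h ▸ hgp.1
      have hgMM : g ∈ T M := mem_of_ne (D.card_v m.hv) (D.card_i m.hv) hev heM hg.1 hgM
      have : g ∈ T v' := (pv.superset ⟨hg.1, hgMM⟩).1
      rw [b.e] at hgr
      exact hgr this
    have hyn : T y ≠ T r := by
      obtain ⟨s, hs⟩ := D.arc_ex m2.fq
      obtain ⟨s', hs'⟩ := D.arc_ex m2.fq'
      exact (D.both (D.gside g b (by norm_num)) m2 hy hs hs').2.1
    have hyE := D.arc_end m2.fv hy
    have hyp := D.arc_pair m2.fv hy
    have hcc : ((T r)ᶜ ∩ T (v' + r - M)).ncard = 2 := by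
      rw [b.e, compl_compl]; exact D.card_i m2.hq
    have hT : T p = T y := by
      rw [type_swap (D.card_v b.hq) h3 (D.card_i m2.hv) hcc hB hn,
        type_swap (D.card_v b.hq) (D.card_v hyE) (D.card_i m2.hv) hcc hyp hyn]
    exact D.uniq_far (D.gside g b (by norm_num)) m2 hy d2 hT
  · -- type of `x`
    left
    have hn : T p ≠ T q := by
      obtain ⟨g, hg, hgM⟩ : ∃ g, g ∈ T v' ∩ T (v' + r - M) ∧ g ≠ f := by
        by_contra hcon
        push Not at hcon
        have : (T v' ∩ T (v' + r - M)).ncard ≤ ({f} : Set (Fin 6)).ncard :=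
          ncard_le_ncard (fun g hg => hcon g hg) (toFinite _)
        rw [ncard_singleton, D.card_i m2.hq] at this
        omega
      intro h
      have hgp : g ∈ T p ∩ T (v' + r - M) := by rw [hB]; exact hg
      have hgr : g ∈ T q := h ▸ hgp.1
      have hgMM : g ∈ T M := mem_of_ne (D.card_v b.hv) (D.card_i b.hv) hfv' hfM hg.1 hgM
      have : g ∈ T v := (pv.subset ⟨hg.1, hgMM⟩).1
      rw [m.e] at hgr
      exact hgr this
    have hxn : T x ≠ T q := by
      obtain ⟨s, hs⟩ := D.arc_ex m1.fq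
      obtain ⟨s', hs'⟩ := D.arc_ex m1.fq'
      exact (D.both (D.gside g m (by norm_num)) m1 hx hs hs').2.1
    have hxE := D.arc_end m1.fv hx
    have hxp := D.arc_pair m1.fv hx
    have hcc : ((T q)ᶜ ∩ T (v + q - M)).ncard = 2 := by
      rw [m.e, compl_compl]; exact D.card_i m1.hq
    have hT : T p = T x := by
      rw [type_swap (D.card_v m.hq) h3 (D.card_i m1.hv) hcc hA hn,
        type_swap (D.card_v m.hq) (D.card_v hxE) (D.card_i m1.hv) hcc hxp hxn]
    exact D.uniq_far (D.gside g m (by norm_num)) m1 hx d1 hT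
  · -- `e` would be in `T q`
    exfalso
    have h1 : e ∈ T p ∩ T (v' + r - M) := by rw [hB]; exact ⟨her, hew'⟩
    have h2 : e ∈ T p ∩ T (v + q - M) := ⟨h1.1, hew⟩
    rw [hA] at h2
    exact heq h2.1

theorem dist_e (D : DNetG G T E A o inn) {z v : ℂ} (h : E z v) : ‖v - z‖ = 1 := by
  have := (D.net (T v)).dist_t (z := z) (v := v) ⟨h, rfl⟩
  rwa [dist_eq_norm] at this

/-- **there is no centre with ends of complementary types** -/
theorem false (D : DNetG G T E A o inn) {z v q : ℂ} (g₀ : Gn G 6 z) (hv : E z v) (hq : E z q)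
    (hT : T q = (T v)ᶜ) : False := by
  obtain ⟨M, q', m⟩ := D.exists_mid (g₀.mono (by norm_num)) hv hq hT
  have g : Gn G 5 M := g₀.step (by
    have h1 := D.dist_e hv
    have h2 := D.dist_e m.hv
    rw [dist_eq_norm]
    have h3 := norm_sub_le (v - z) (v - M)
    rw [show v - z - (v - M) = M - z by ring] at h3
    linarith) (by norm_num)
  have g4 : Gn G 4 M := g.mono (by norm_num)
  obtain ⟨v', hv'⟩ := D.arc_ex m.fv
  obtain ⟨r, hr⟩ := D.arc_ex m.fq
  obtain ⟨r', hr'⟩ := D.arc_ex m.fq'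
  obtain ⟨b, n1, n2⟩ := D.both g4 m hv' hr hr'
  obtain ⟨a1, m1⟩ := D.mid_side (g.mono (by norm_num)) m
  obtain ⟨a2, m2⟩ := D.mid_side (g.mono (by norm_num)) b
  obtain ⟨x, hx⟩ := D.arc_ex m1.fv
  obtain ⟨y, hy⟩ := D.arc_ex m2.fv
  have hall := D.far_cov g4 m hv' hr hr'
  have pv := D.arc_pair m.fv hv'
  have pr := D.arc_pair m.fq hr
  have hne : v + q - M ≠ v' + r - M := by
    intro h
    have h4 := D.card_z m1.hv
    have : T (v + q - M) = univ := by
      ext i
      simp only [mem_univ, iff_true]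
      rcases hall i with h' | h'
      · exact h'
      · rw [h]; exact h'
    rw [this, ncard_univ, Nat.card_eq_fintype_card, Fintype.card_fin] at h4
    omega
  -- orientations
  have os : o (v + q - M) q = -o M q := D.flip_q g4 m
  have or1 : o M r = -o M q := D.arc_ori m.fq b.fq hr
  have or2 : o (v' + r - M) r = o M q := by rw [D.flip_q g4 b, or1, neg_neg]
  -- arcs
  obtain ⟨l, l0, l1, hl⟩ := D.arc_len m.fv hv'
  obtain ⟨l', l0', l1', hl'⟩ := D.arc_len m.fq hr
  obtain ⟨k, k0, k1, hk⟩ := D.arc_len m1.fv hx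
  obtain ⟨j, j0, j1, hj⟩ := D.arc_len m2.fv hy
  obtain ⟨c1, c2⟩ := chord (D.dist_e m.hv) (D.ori m.hv) l0 l1 hl
  obtain ⟨c3, c4⟩ := chord (D.dist_e m.hq) (D.ori m.hq) l0' l1' hl'
  have d1 : dt (v - M) (q - M) ≠ 0 := (D.net (T v)).dt_ne ⟨m.hv, rfl⟩ ⟨m.hq, m.e⟩
  have hvr : T v ∩ T M = T M \ T r := by
    rw [← pv, b.e]; ext i; simp only [mem_inter_iff, mem_compl_iff, mem_sdiff]; tauto
  have d2 : dt (v - M) (r - M) ≠ 0 := by
    intro h
    have := (D.LP2 b.fq m.fv m.fv hvr hvr).1 rfl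
    rw [dt_comm (v - M) (r - M), h] at this
    simp at this
  have hd : dist (v + q - M) (v' + r - M) < 2 := by
    have := norm_lt_two (D.dist_e m.hv) c1 (D.dist_e m.hq) c3 c2 c4 d1 d2
    have e : v + q - M - (v' + r - M) = (v - M - (v' - M)) + (q - M - (r - M)) := by ring
    rw [dist_eq_norm, e]
    exact this
  obtain ⟨p, p', hpp, hsum, e1, e2, e3, e4⟩ := two_points hne hd
  have q1 : (v + q - M) + (v' + r - M) ≠ 2 * p := by
    intro h
    apply hpp
    rw [← hsum] at h
    linear_combination -h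
  have q2 : (v + q - M) + (v' + r - M) ≠ 2 * p' := by
    intro h
    apply hpp
    rw [← hsum] at h
    linear_combination h
  have hxy : x + y = (v + q - M) + (v' + r - M) := by
    rcases D.common_far g m hv' hr hr' hx hy e1 e2 q1 with h | h <;>
      rcases D.common_far g m hv' hr hr' hx hy e3 e4 q2 with h' | h'
    · exact absurd (h.trans h'.symm) hpp
    · rw [← h, ← h']; exact hsum
    · rw [← h, ← h', add_comm]; exact hsum
    · exact absurd (h.trans h'.symm) hpp
  -- the closing equation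
  have hV0 : v - M ≠ 0 := by
    intro h
    have := D.dist_e m.hv
    rw [h, norm_zero] at this
    norm_num at this
  rw [os] at hk
  rw [or2] at hj
  have hclose : Real.cos (o M v * l + o M q * j + o M q * k) = -1 := by
    have h1 : (v - M) * Complex.exp (((o M q * k : ℝ) : ℂ) * I) =
        -((v - M) * (Complex.exp (-((o M v * l : ℝ) : ℂ) * I) *
          Complex.exp (-((o M q * j : ℝ) : ℂ) * I))) := by
      have h2 : x - (v + q - M) = -(y - (v' + r - M)) := by linear_combination hxy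
      rw [hk, hj, show q - (v + q - M) = -(v - M) by ring,
        show r - (v' + r - M) = -(v' - M) by ring, hl] at h2
      have h3 : -((-(o M q) * k : ℝ) : ℂ) * I = ((o M q * k : ℝ) : ℂ) * I := by
        push_cast; ring
      rw [h3] at h2
      linear_combination -h2
    have h4 : Complex.exp (((o M q * k : ℝ) : ℂ) * I) =
        -(Complex.exp (-((o M v * l : ℝ) : ℂ) * I) *
          Complex.exp (-((o M q * j : ℝ) : ℂ) * I)) := by
      apply mul_left_cancel₀ hV0
      rw [h1]; ring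
    have h5 : Complex.exp (((o M v * l + o M q * j + o M q * k : ℝ) : ℂ) * I) = -1 := by
      have h6 : ((o M v * l + o M q * j + o M q * k : ℝ) : ℂ) * I =
          ((o M v * l : ℝ) : ℂ) * I + (((o M q * j : ℝ) : ℂ) * I +
            ((o M q * k : ℝ) : ℂ) * I) := by push_cast; ring
      rw [h6, Complex.exp_add, Complex.exp_add, h4]
      have h7 : Complex.exp (((o M v * l : ℝ) : ℂ) * I) *
          Complex.exp (-((o M v * l : ℝ) : ℂ) * I) = 1 := by
        rw [← Complex.exp_add, neg_mul, add_neg_cancel, Complex.exp_zero]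
      have h8 : Complex.exp (((o M q * j : ℝ) : ℂ) * I) *
          Complex.exp (-((o M q * j : ℝ) : ℂ) * I) = 1 := by
        rw [← Complex.exp_add, neg_mul, add_neg_cancel, Complex.exp_zero]
      linear_combination (-(Complex.exp (((o M q * j : ℝ) : ℂ) * I) *
          Complex.exp (-((o M q * j : ℝ) : ℂ) * I))) * h7 - h8
    have := congrArg Complex.re h5
    rw [Complex.exp_ofReal_mul_I_re] at this
    simpa using this
  obtain ⟨t1, t2, t3⟩ := closing (D.ori m.hv) (D.ori m.hq) l0 j0 k0 l1 j1 k1 hclose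
  -- the tie
  have hyv : y = v + r - M := by
    rw [t1, t2] at hl
    rw [t3, show r - (v' + r - M) = -(v' - M) by ring, hl] at hj
    have hs := sixth (D.ori m.hq)
    linear_combination hj + hl + (v - M) * hs
  obtain ⟨e, hev, heM⟩ := exists_out (D.card_v m.hv) (D.card_i m.hv)
  have hew' : e ∈ T (v' + r - M) := (D.cov' b e).resolve_left heM
  have hTv' : T v' = (T v ∩ T M) ∪ ((T v)ᶜ \ T M) :=
    type_swap (D.card_v m.hv) (D.card_v b.hv) (D.card_i m.hv)
      (by rw [← m.e]; exact D.card_i m.hq) pv n1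
  have her : e ∈ T r := by
    rw [b.e, hTv']
    rintro (h | h)
    · exact heM h.2
    · exact h.1 hev
  obtain ⟨t, htr, ht⟩ : ∃ t, t ∈ T r ∧ ∀ i ∈ T r ∩ T (v' + r - M), i = e ∨ i = t := by
    obtain ⟨c, c', hcc, hS⟩ := ncard_eq_two.1 (D.card_i m2.hv)
    have he : e ∈ T r ∩ T (v' + r - M) := ⟨her, hew'⟩
    have hc : c ∈ T r ∩ T (v' + r - M) := by rw [hS]; simp
    have hc' : c' ∈ T r ∩ T (v' + r - M) := by rw [hS]; simp
    have he2 := he
    rw [hS] at he2
    simp only [mem_insert_iff, mem_singleton_iff] at he2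
    rcases he2 with he2 | he2
    · refine ⟨c', hc'.1, fun i hi => ?_⟩
      rw [hS] at hi
      simp only [mem_insert_iff, mem_singleton_iff] at hi
      rcases hi with hi | hi
      · left; rw [hi, he2]
      · right; exact hi
    · refine ⟨c, hc.1, fun i hi => ?_⟩
      rw [hS] at hi
      simp only [mem_insert_iff, mem_singleton_iff] at hi
      rcases hi with hi | hi
      · right; exact hi
      · left; rw [hi, he2]
  have hyn : T y ≠ T r := by
    obtain ⟨s, hs⟩ := D.arc_ex m2.fq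
    obtain ⟨s', hs'⟩ := D.arc_ex m2.fq'
    exact (D.both (D.gside g b (by norm_num)) m2 hy hs hs').2.1
  have hTy : T y ⊆ insert t (T v) := by
    have hcc : ((T r)ᶜ ∩ T (v' + r - M)).ncard = 2 := by
      rw [b.e, compl_compl]; exact D.card_i m2.hq
    rw [type_swap (D.card_v b.hq) (D.card_v (D.arc_end m2.fv hy)) (D.card_i m2.hv) hcc
      (D.arc_pair m2.fv hy) hyn]
    rintro i (hi | hi)
    · rcases ht i hi with h | h
      · rw [h]; exact Or.inr hev
      · rw [h]; exact Or.inl rfl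
    · right
      have h1 : i ∈ T v' := by
        have := hi.1
        rw [b.e, compl_compl] at this
        exact this
      have h2 : i ∈ T M := (D.cov' b i).resolve_right hi.2
      exact (pv.subset ⟨h1, h2⟩).1
  have hd1 : dist y v = 1 := by
    rw [dist_eq_norm, hyv, show v + r - M - v = r - M by ring]
    exact D.dist_e b.hq
  have hd2 : dist y r = 1 := by
    rw [dist_eq_norm, hyv, show v + r - M - r = v - M by ring]
    exact D.dist_e m.hv
  rcases D.lemX m.hv hd1 hd2 htr hTy with h | h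
  · apply d2
    rw [h, dt_self]
  · apply d2
    have : r - M = -(v - M) := by rw [hyv] at h; linear_combination -h
    rw [this, dt_neg_right, dt_self, neg_zero]


end DNetG

end Vale.Agent.P032.R2.H306.Loc
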