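import Vale.Agent.P032.R2.H306.Loc.LEnd
import Vale.Agent.P032.S5.H11.Core4

/-!
# P032: the fields of the network of two-pair centres, local form

The proofs of helpers 12, 813 and 358 with the bound `|T| ≤ 4` only within distance two of the
centre.
-/

open Set Filter Topology Metric

noncomputable section

namespace Vale.Agent.P032.R2.H306.Loc

open Vale.Agent.P032.Six Vale.Agent.P032.Words Vale.Agent.P032.S5.H767 Vale.Agent.P032.S5.H349
open Vale.Agent.P032.S5.H358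
open Vale.Agent.P032.Net.H672 (Full dt)

variable {U : Fin 6 → Set ℂ} {T : ℂ → Set (Fin 6)} {X : Set (Fin 6)} {z v v' v'' q q' m : ℂ}
  {a b c d e f : Fin 6} {o o' : ℝ}

/-- at most four colours within distance two -/
def H4 (T : ℂ → Set (Fin 6)) (z : ℂ) : Prop := ∀ w, dist w z ≤ 2 → (T w).ncard ≤ 4

theorem H4.op (h4 : H4 T z) (hm : dist m z = 1) (hq : dist q z = 1) :
    (T (m + q - z)).ncard ≤ 4 := by
  refine h4 _ ?_
  rw [dist_eq_norm] at hm hq ⊢
  have h3 := norm_add_le (m - z) (q - z)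
  rw [show m - z + (q - z) = m + q - z - z by ring] at h3
  linarith

theorem auto_l (h : Irr U T) (h4 : H4 T z) (hv : EE T z v) (hq : EE T z q)
    (hc : T q = (T v)ᶜ) (hm : dist m z = 1) (hTm : T m = T v) : EE T z m := by
  obtain ⟨a, b, c, d, e, f, C, -, -⟩ := exists_ncfg h hv hm hTm hq.dist hc (h4.op hm hq.dist)
  exact C.ee h

theorem rh_l (h : Irr U T) (h4 : H4 T z) (hv : EE T z v) (hq : EE T z q)
    (hc : T q = (T v)ᶜ) : EE T (v + q - z) v := by
  obtain ⟨a, b, c, d, e, f, C, -, -⟩ := exists_ncfg h hv hv.dist rfl hq.dist hc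
    (h4.op hv.dist hq.dist)
  exact (C.conj h).ee h

theorem rh_l' (h : Irr U T) (h4 : H4 T z) (hv : EE T z v) (hq : EE T z q)
    (hc : T q = (T v)ᶜ) : EE T (v + q - z) q := by
  have := rh_l h h4 hq hv (by rw [hc, compl_compl])
  rwa [add_comm q v] at this

theorem cov_l (h : Irr U T) (h4 : H4 T z) (hv : EE T z v) (hq : EE T z q)
    (hc : T q = (T v)ᶜ) (i : Fin 6) : i ∈ T z ∨ i ∈ T (v + q - z) := by
  obtain ⟨a, b, c, d, e, f, C, -, -⟩ := exists_ncfg h hv hv.dist rfl hq.dist hc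
    (h4.op hv.dist hq.dist)
  rw [C.dp.pal, C.TW]
  have := C.cover i
  simp only [mem_insert_iff, mem_singleton_iff]
  tauto

theorem lp1_l (h : Irr U T) (h4 : H4 T z) (hv : EE T z v) (hq : EE T z q)
    (hc : T q = (T v)ᶜ) :
    0 < ore T z v * cr (z - v) (q - z) ↔ inn U T (v + q - z) v ∈ T z := by
  obtain ⟨a, b, c, d, e, f, C, -, -⟩ := exists_ncfg h hv hv.dist rfl hq.dist hc
    (h4.op hv.dist hq.dist)
  obtain ⟨o, h1, h2⟩ := C.lp1 h
  have ho : ore T z v = o := h1.ore_eq C.inter (ore_spec hv.1)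
  rw [ho]
  rw [show v + q - z - v = q - z by ring] at h2
  have hi := (C.conj h).inter
  have haz : a ∈ T z := by rw [C.dp.pal]; simp
  rcases h2 with ⟨h2, h3⟩ | ⟨h2, h3⟩
  · rw [EE.inn_eq h ⟨e, C.ea.symm, hi, h2⟩]
    exact ⟨fun _ => haz, fun _ => h3⟩
  · rw [EE.inn_eq h ⟨a, C.ea, by rw [hi, pair_comm], h2⟩]
    exact ⟨fun h5 => absurd h5 (not_lt.2 h3.le), fun h5 => absurd h5 C.he⟩

theorem cln_l (h : Irr U T) (h4 : H4 T z) (hv : EE T z v) (hq : EE T z q)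
    (hc : T q = (T v)ᶜ) (hm : dist m z = 1) (hTm : T m = T v) :
    Vale.Agent.P032.S5.H349.Cln T z m := by
  obtain ⟨a, b, c, d, e, f, C, -, -⟩ := exists_ncfg h hv hm hTm hq.dist hc (h4.op hm hq.dist)
  obtain ⟨o, hE, -⟩ := C.lp1 h
  have hP := C.inter
  have h1 := hE.arc.and (hE.after.mono fun t ht => ht.2)
  obtain ⟨ε, hε, hs⟩ := mem_nhdsGT_iff_exists_Ioo_subset.1 h1
  refine ⟨o, ε, hE.o1, hε, fun t ht => ?_, fun t ht => ?_⟩
  · have := (hs ht).1
    rw [neg_mul] at this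
    rw [hP]; exact this
  · rw [hP]; exact (hs ht).2

theorem lp3_l (h : Irr U T) (h4 : H4 T z) (hv : EE T z v) (hq : EE T z q)
    (hc : T q = (T v)ᶜ) {c p : ℂ} (hv' : EE T c v) (hp : EE T c p) (hc' : T p = (T v)ᶜ)
    (hcz : c ≠ z) (hcw : c ≠ v + q - z) : ∃ a b : ℝ, 0 ≤ a ∧ 0 ≤ b ∧
      ((ore T c v : ℝ) : ℂ) * (c - v) + (a : ℂ) * (((ore T z v : ℝ) : ℂ) * (z - v))
        + (b : ℂ) * (((ore T (v + q - z) v : ℝ) : ℂ) * (q - z)) = 0 := by
  have hwv := rh_l h h4 hv hq hc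
  have hwq := rh_l' h h4 hv hq hc
  have hop := hv.anti h hq hc
  have hvq : v ≠ q := (hv.en rfl).ne hv.card_v (hq.en hc)
  have hzw : z ≠ v + q - z := fun h5 => hop (by linear_combination -h5)
  have := h.lp3 (ore_spec hv.1) (ore_spec hwv.1) (ore_spec hv'.1) hv.2 hwv.2 hzw
    (fun h5 => hvq (by linear_combination -h5))
    (fun h5 => hzw (hv.unique_pair h hwv hq hc hwq hc h5))
    (fun h5 => hcz (hv'.unique_pair h hv hp hc' hq hc h5))
    (fun h5 => hcw (hv'.unique_pair h hwv hp hc' hwq hc h5))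
  rw [show v + q - z - v = q - z by ring] at this
  exact this

theorem sgn_l (h : Irr U T) (h4 : H4 T z) (hv : EE T z v) (hq : EE T z q)
    (hc : T q = (T v)ᶜ) (h1 : OEnd T z v o) (h2 : OEnd T z v o') : o = o' := by
  refine h1.unique h h2 hq.dist hq.card_v.le (fun i => ?_) ?_ (hv.anti813 h hq hc)
    (hv.four813 h hq hc (h4.op hv.dist hq.dist))
  · rw [hc]; exact em _
  · rw [hc]; exact disjoint_compl_right

theorem sgn_l' (h : Irr U T) (h4 : H4 T z) (hv : EE T z v) (hq : EE T z q)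
    (hc : T q = (T v)ᶜ) (h1 : OEnd T z v o) : o = ore T z v :=
  sgn_l h h4 hv hq hc h1 hv.ore813

theorem arc_uniq_l (h : Irr U T) (h4 : H4 T z) (hv : EE T z v) (hq : EE T z q)
    (hc : T q = (T v)ᶜ) (h1 : AA T z v v') (h2 : AA T z v v'') : v' = v'' := by
  obtain ⟨o, l, hl0, hl, hE, hE', e, harc⟩ := h1
  obtain ⟨o', l', hl0', hl', hE1, hE1', e', harc'⟩ := h2
  have ho : o' = o := sgn_l h h4 hv hq hc hE1 hE
  subst ho
  have hp := hE.2.2.2.2.1
  have h5 := AA.len_le hE' hl0 e harc' hp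
  have h6 := AA.len_le hE1' hl0' e' harc hp
  rw [e, e', le_antisymm h6 h5]

theorem arc_ori_l (h : Irr U T) (h4 : H4 T z) (hv : EE T z v) (hq : EE T z q)
    (hc : T q = (T v)ᶜ) (hv' : EE T z v') (hq' : EE T z q') (hc' : T q' = (T v')ᶜ)
    (h1 : AA T z v v') : ore T z v' = - ore T z v := by
  obtain ⟨o, l, -, -, hE, hE', -, -⟩ := h1
  rw [← sgn_l' h h4 hv hq hc hE, ← sgn_l' h h4 hv' hq' hc' hE']

theorem arc_len_l (h : Irr U T) (h4 : H4 T z) (hv : EE T z v) (hq : EE T z q)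
    (hc : T q = (T v)ᶜ) (h1 : AA T z v v') : ∃ l : ℝ, 0 < l ∧ l ≤ Real.pi / 3 ∧
      v' - z = (v - z) * Complex.exp (-((ore T z v * l : ℝ) : ℂ) * Complex.I) := by
  obtain ⟨o, l, hl0, hl, hE, hE', e, -⟩ := h1
  refine ⟨l, hl0, hl, ?_⟩
  rw [← sgn_l' h h4 hv hq hc hE, e, add_sub_cancel_left, cis, Complex.ofReal_neg]

end Vale.Agent.P032.R2.H306.Loc
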