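import Vale.Agent.P032.R2.H306.Loc.LFld

/-!
# P032: a clean two-pair point has an unclean one nearby

`no_D_loc`: if the points at distance at most `14` from `z` have at most four colours and the circles
of the two-pair points at distance at most `12` carry no four coloured points, then `z` is not a
two-pair point.  Local form of `no_D_of_good` (helper358).
-/

open Set Filter Topology Metric

noncomputable section

namespace Vale.Agent.P032.R2.H306.Loc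

open Vale.Agent.P032.Six Vale.Agent.P032.Words Vale.Agent.P032.S5.H767 Vale.Agent.P032.S5.H349
open Vale.Agent.P032.S5.H358
open Vale.Agent.P032.Net.H672 (Full dt)

variable {U : Fin 6 → Set ℂ} {T : ℂ → Set (Fin 6)} {X : Set (Fin 6)} {z v v' v'' q q' m : ℂ}
  {a b c d e f : Fin 6} {o o' : ℝ}

/-- a good centre: at most four colours within distance two, and a clean circle if it is a two-pair
point -/
def GG (T : ℂ → Set (Fin 6)) (z : ℂ) : Prop :=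
  H4 T z ∧ ∀ a b c d, DPt T z a b c d → ∀ y, dist y z = 1 → (T y).ncard ≤ 3

/-- an end at a good centre -/
def EG (T : ℂ → Set (Fin 6)) (z v : ℂ) : Prop := EE T z v ∧ GG T z

theorem EG.good (h : Irr U T) (hv : EG T z v) : Good U T z := by
  obtain ⟨a, b, c, d, h1, h2⟩ := hv.1.names
  exact h.good_three (hv.2.2 a b c d (hv.1.dpt h h1 h2))

/-- the network, local form -/
theorem net_l (h : Irr U T) (X : Set (Fin 6)) :
    NetG (GG T) (fun z v => EG T z v ∧ T v = X) (fun z q => EG T z q ∧ T q = Xᶜ) := by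
  have hX3 : ∀ {z v}, EG T z v ∧ T v = X → X.ncard = 3 := by
    rintro z v ⟨h1, rfl⟩; exact h1.1.card_v
  have hX3' : ∀ {z v}, EG T z v ∧ T v = Xᶜ → X.ncard = 3 := by
    rintro z v ⟨h1, h2⟩
    have h3 := h1.1.card_v
    rw [h2] at h3
    have := Set.ncard_add_ncard_compl X
    rw [Nat.card_eq_fintype_card, Fintype.card_fin] at this
    omega
  have hc : ∀ {z v z' q}, EG T z v ∧ T v = X → EG T z' q ∧ T q = Xᶜ → T q = (T v)ᶜ := by
    rintro z v z' q ⟨-, h1⟩ ⟨-, h2⟩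
    rw [h1, h2]
  have hc' : ∀ {z v z' q}, EG T z v ∧ T v = X → EG T z' q ∧ T q = Xᶜ → T v = (T q)ᶜ := by
    rintro z v z' q ⟨-, h1⟩ ⟨-, h2⟩
    rw [h1, h2, compl_compl]
  have back : ∀ {z v q v'}, EG T z v ∧ T v = X → EG T z q ∧ T q = Xᶜ → En T X z v' →
      EG T z v' ∧ T v' = X := fun hv hq hv' =>
    ⟨⟨hv'.ee (hX3 hv) (hv.1.1.arc_compl hv.2), hv.1.2⟩, hv'.1⟩
  have back' : ∀ {z v q v'}, EG T z v ∧ T v = X → EG T z q ∧ T q = Xᶜ → En T Xᶜ z v' →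
      EG T z v' ∧ T v' = Xᶜ := fun hv hq hv' =>
    ⟨⟨hv'.ee (ncard_compl_three (hX3 hv)) (hq.1.1.arc_compl hq.2), hv.1.2⟩, hv'.1⟩
  have h3 : ∀ {z v}, EG T z v → OkC U T z := fun hv => (hv.good h).1
  have hcl : ∀ {z v q}, EG T z v ∧ T v = X → EG T z q ∧ T q = Xᶜ → ∀ m, dist m z = 1 →
      T m = X ∨ T m = Xᶜ → Vale.Agent.P032.S5.H349.Cln T z m := by
    rintro z v q hv hq m hm (h5 | h5)
    · exact cln_l h hv.1.2.1 hv.1.1 hq.1.1 (hc hv hq) hm (h5.trans hv.2.symm)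
    · exact cln_l h hv.1.2.1 hq.1.1 hv.1.1 (hc' hv hq) hm (h5.trans hq.2.symm)
  refine
    { dist_t := fun hv => hv.1.1.dist
      dist_c := fun hq => hq.1.1.dist
      ne := fun {z z' v} hv hq => ?_
      rh := fun {z v q} hv hq g => ⟨⟨⟨rh_l h hv.1.2.1 hv.1.1 hq.1.1 (hc hv hq), g⟩, hv.2⟩,
        ⟨⟨rh_l' h hv.1.2.1 hv.1.1 hq.1.1 (hc hv hq), g⟩, hq.2⟩⟩
      three_t := ?_
      three_c := ?_
      sep := ?_
      L2 := ?_
      L3 := ?_
      L3' := ?_ }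
  · have h5 := (hv.1.1.en hv.2).ne (hX3 hv) (hq.1.1.en hq.2)
    exact h5 rfl
  · rintro v z₁ z₂ z₃ z₄ ⟨a1, q1, b1⟩ ⟨a2, q2, b2⟩ ⟨a3, q3, b3⟩ ⟨a4, q4, b4⟩
    exact h.en_three (hX3 a1) ⟨a1.1.1.en a1.2, q1, b1.1.1.en b1.2⟩
      ⟨a2.1.1.en a2.2, q2, b2.1.1.en b2.2⟩ ⟨a3.1.1.en a3.2, q3, b3.1.1.en b3.2⟩
      ⟨a4.1.1.en a4.2, q4, b4.1.1.en b4.2⟩
  · rintro q z₁ z₂ z₃ z₄ ⟨a1, q1, b1⟩ ⟨a2, q2, b2⟩ ⟨a3, q3, b3⟩ ⟨a4, q4, b4⟩
    have e : ∀ {z v}, EG T z v ∧ T v = X → En T Xᶜᶜ z v := fun hv =>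
      hv.1.1.en (by rw [compl_compl]; exact hv.2)
    exact h.en_three (X := Xᶜ) (ncard_compl_three (hX3' a1))
      ⟨a1.1.1.en a1.2, q1, e b1⟩ ⟨a2.1.1.en a2.2, q2, e b2⟩
      ⟨a3.1.1.en a3.2, q3, e b3⟩ ⟨a4.1.1.en a4.2, q4, e b4⟩
  · rintro z v₁ v₂ q₁ q₂ hv₁ hv₂ hq₁ hq₂
    have e : ∀ {v q}, EG T z v ∧ T v = X → EG T z q ∧ T q = Xᶜ → T v ∩ T z = T z \ T q := by
      rintro v q ⟨-, h1⟩ ⟨-, h2⟩
      rw [h1, h2, Set.sdiff_compl, inter_comm]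
    have l1 := hq₁.1.1.lp2 h hv₁.1.1 hv₂.1.1 (e hv₁ hq₁) (e hv₂ hq₁)
    have l2 := hq₂.1.1.lp2 h hv₁.1.1 hv₂.1.1 (e hv₁ hq₂) (e hv₂ hq₂)
    have nz : ∀ {v q}, EG T z v ∧ T v = X → EG T z q ∧ T q = Xᶜ →
        cr (q - z) (v - z) ≠ 0 := by
      intro v q hv hq
      refine cr_ne_of hq.1.1.dist hv.1.1.dist
        ((hv.1.1.en hv.2).ne (hX3 hv) (hq.1.1.en hq.2)).symm ?_
      rw [add_comm]
      exact hv.1.1.anti h hq.1.1 (hc hv hq)
    have n11 := nz hv₁ hq₁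
    have n21 := nz hv₂ hq₁
    have n12 := nz hv₁ hq₂
    have n22 := nz hv₂ hq₂
    have hP : (0 < cr (q₁ - z) (v₁ - z) * cr (q₁ - z) (v₂ - z)) ↔
        0 < cr (q₂ - z) (v₁ - z) * cr (q₂ - z) (v₂ - z) := l1.symm.trans l2
    have hpos : 0 < (cr (q₁ - z) (v₁ - z) * cr (q₁ - z) (v₂ - z)) *
        (cr (q₂ - z) (v₁ - z) * cr (q₂ - z) (v₂ - z)) := by
      rcases lt_or_gt_of_ne (mul_ne_zero n11 n21) with h5 | h5
      · rcases lt_or_gt_of_ne (mul_ne_zero n12 n22) with h6 | h6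
        · exact mul_pos_of_neg_of_neg h5 h6
        · exact absurd (hP.2 h6) (not_lt.2 h5.le)
      · exact mul_pos h5 (hP.1 h5)
    refine hpos.trans_le (le_of_eq ?_)
    unfold cr Vale.Agent.P032.Net.H672.dt
    ring
  · intro z v q hv hq
    rcases L2_ok h (hX3 hv) (h3 hv.1) (hv.1.1.pairs h hv.2) (hcl hv hq) (hv.1.1.en hv.2)
      (hq.1.1.en hq.2) with ⟨v', h5, h6⟩ | ⟨q', h5, h6⟩
    · exact Or.inl ⟨v', h5, back hv hq h6⟩
    · exact Or.inr ⟨q', h5, back' hv hq h6⟩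
  · intro z v q q' hv hq hq' hne hu1 hu2
    exact L3_ok h (hX3 hv) (h3 hv.1) (hv.1.1.pairs h hv.2) (hcl hv hq) (hv.1.1.en hv.2)
      (hq.1.1.en hq.2) (hq'.1.1.en hq'.2) hne (fun v' h5 => hu1 v' (back hv hq h5))
      (fun p h5 => hu2 p (back' hv hq h5))
  · intro z q v v' hq hv hv' hne hu1 hu2
    have e : ∀ {z v}, EG T z v ∧ T v = X → T v = Xᶜᶜ := fun hv => by
      rw [compl_compl]; exact hv.2
    refine L3_ok (X := Xᶜ) h (ncard_compl_three (hX3 hv)) (h3 hv.1) (hq.1.1.pairs h hq.2) ?_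
      (hq.1.1.en hq.2) (hv.1.1.en (e hv)) (hv'.1.1.en (e hv')) hne
      (fun v' h5 => hu1 v' (back' hv hq h5))
      (fun p h5 => hu2 p (back hv hq (by rw [compl_compl] at h5; exact h5)))
    intro m hm h5
    refine hcl hv hq m hm ?_
    rw [compl_compl] at h5
    exact h5.symm

/-- the field `common`, clean circles -/
theorem common_l (h : Irr U T) {w v q w' v' q' m : ℂ} (e1 : EG T w v) (e3 : T q = (T v)ᶜ)
    (e1' : EG T w' v') (e3' : T q' = (T v')ᶜ) (hne : w ≠ w') (hcov : ∀ i, i ∈ T w ∨ i ∈ T w')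
    (hmw : dist m w = 1) (hmw' : dist m w' = 1) (hne2 : w + w' ≠ 2 * m)
    (hs : (T v ∩ T w ∩ T w').ncard = 1) (hs' : (T v' ∩ T w' ∩ T w).ncard = 1) :
    (T m).ncard = 3 ∧
      (T m ∩ T w = T v ∩ T w ∨ T m ∩ T w = T q ∩ T w) ∧
      (T m ∩ T w' = T v' ∩ T w' ∨ T m ∩ T w' = T q' ∩ T w') := by
  refine e1.1.common h e3 e1'.1 e3' hne hcov hmw hmw' hne2 hs hs' ?_
  obtain ⟨a, b, c, d, h1, h2⟩ := e1.1.names
  exact e1.2.2 a b c d (e1.1.dpt h h1 h2) m hmw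

theorem full_l (hv : Full T (EG T) z v) : ∃ q, EE T z q ∧ T q = (T v)ᶜ :=
  let ⟨_, q, hq, e⟩ := hv
  ⟨q, hq.1, e⟩

/-- the network with palettes, local form -/
theorem dnet_l (h : Irr U T) : DNetG (GG T) T (EG T) (AA T) (ore T) (inn U T) where
  net := net_l h
  card_z := fun hv => hv.1.card_z
  card_v := fun hv => hv.1.card_v
  card_i := fun hv => hv.1.card_i'
  cov := fun hv hq hc => cov_l h hv.2.1 hv.1 hq.1 hc
  ori := fun {z v} _ => ore_or T z v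
  inn_mem := fun hv => hv.1.inn_mem h
  LP1 := fun hv hq hc => lp1_l h hv.2.1 hv.1 hq.1 hc
  LP2 := fun hq hv hv' h1 h2 => hq.1.1.lp2 h hv.1.1 hv'.1.1 h1 h2
  LP3 := fun hv hq hc hv' hp hc' hcz hcw => lp3_l h hv.2.1 hv.1 hq.1 hc hv'.1 hp.1 hc' hcz hcw
  arc_ex := fun {z v} hv => by
    obtain ⟨q, hq, e⟩ := full_l hv
    exact arc_ex_ok h (hv.1.good h).1 hv.1.1 hq e
  arc_end := fun hv h2 => ⟨h2.end_ hv.1.1, hv.1.2⟩
  arc_pair := fun _ h2 => h2.pair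
  arc_len := fun {z v v'} hv h1 => by
    obtain ⟨q, hq, e⟩ := full_l hv
    exact arc_len_l h hv.1.2.1 hv.1.1 hq e h1
  arc_uniq := fun {z v v' v''} hv h1 h2 => by
    obtain ⟨q, hq, e⟩ := full_l hv
    exact arc_uniq_l h hv.1.2.1 hv.1.1 hq e h1 h2
  arc_symm := fun _ _ h1 => h1.symm
  arc_ori := fun {z v v'} hv hv' h1 => by
    obtain ⟨q, hq, e⟩ := full_l hv
    obtain ⟨q', hq', e'⟩ := full_l hv'
    exact arc_ori_l h hv.1.2.1 hv.1.1 hq e hv'.1.1 hq' e' h1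
  arc_inn := fun {z v v'} hv _ h1 => by
    obtain ⟨q, hq, e⟩ := full_l hv
    exact hv.1.1.arc_inn h hq e h1
  auto := fun hv hq hc hm hTm => ⟨auto_l h hv.2.1 hv.1 hq.1 hc hm hTm, hv.2⟩
  common := fun e1 _ e3 e1' _ e3' hne hcv d d' n s s' =>
    common_l h e1 e3 e1' e3' hne hcv d d' n s s'
  lemX := fun hu' hpu hpr ht hT => hu'.1.lemX h hpu hpr ht hT

/-- **Start of the network argument** -/
theorem start_l (h : Irr U T) (h4 : H4 T z) (hz : DPt T z a b c d)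
    (K : OkC U T z) : ∃ v q, EE T z v ∧ EE T z q ∧ T q = (T v)ᶜ := by
  obtain ⟨e, f, nd⟩ := hz.exists_nodup
  have C := ctr_of_dpt h hz nd
  have nd' : [a, b, c, d, f, e].Nodup := by
    have : [a, b, c, d, f, e].Perm [a, b, c, d, e, f] := by
      refine List.Perm.cons _ (List.Perm.cons _ (List.Perm.cons _ (List.Perm.cons _ ?_)))
      exact List.Perm.swap _ _ _
    exact this.nodup_iff.2 nd
  have C' := ctr_of_dpt h hz nd'
  obtain ⟨⟨ab, ac, ad, ae, af⟩, ⟨bc, bd, be, bf⟩, ⟨cd, ce, cf⟩, ⟨de, df⟩, ef⟩ := nd_ne nd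
  have he : e ∉ T z := by
    rw [hz.pal]
    simp only [mem_insert_iff, mem_singleton_iff, not_or]
    exact ⟨ae.symm, be.symm, ce.symm, de.symm⟩
  have hf : f ∉ T z := by
    rw [hz.pal]
    simp only [mem_insert_iff, mem_singleton_iff, not_or]
    exact ⟨af.symm, bf.symm, cf.symm, df.symm⟩
  -- the two kinds of complementary pairs
  have fin1 : ∀ {V Q : ℂ}, dist V z = 1 → dist Q z = 1 → T V = {a, b, e} → T Q = {c, d, f} →
      ∃ v q, EE T z v ∧ EE T z q ∧ T q = (T v)ᶜ := by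
    intro V Q hV hQ h1 h2
    exact ⟨V, Q, Cfg.ends h ⟨hz, hV, hQ, h1, h2, he, hf, ef⟩ (h4.op hV hQ)⟩
  have fin2 : ∀ {V Q : ℂ}, dist V z = 1 → dist Q z = 1 → T V = {a, b, f} → T Q = {c, d, e} →
      ∃ v q, EE T z v ∧ EE T z q ∧ T q = (T v)ᶜ := by
    intro V Q hV hQ h1 h2
    exact ⟨V, Q, Cfg.ends h ⟨hz, hV, hQ, h1, h2, hf, he, ef.symm⟩ (h4.op hV hQ)⟩
  obtain ⟨y1, d1, k1⟩ := L1e_ok C K
  obtain ⟨y2, d2, k2⟩ := L1e_ok C' K
  obtain ⟨y3, g3, d3, hg3, k3⟩ := arc_end_ok h hz fun y hy => ctr_ends C K (Or.inl hy)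
  obtain ⟨y4, g4, d4, hg4, k4⟩ := arc_end_ok h hz.swap fun y hy => ctr_ends C K (Or.inr hy)
  rcases C.miss hg3 with rfl | rfl
  · -- `y3 = abe`
    rcases C.miss hg4 with rfl | rfl
    · -- `y4 = cde`
      rcases k2 with k2 | k2
      · exact fin2 d2 d4 k2 k4
      · exact fin1 d3 d2 k3 k2
    · exact fin1 d3 d4 k3 k4
  · -- `y3 = abf`
    rcases C.miss hg4 with rfl | rfl
    · exact fin2 d3 d4 k3 k4
    · rcases k1 with k1 | k1
      · exact fin1 d1 d4 k1 k4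
      · exact fin2 d3 d1 k3 k1

/-- **The local theorem**: no two-pair points with good surroundings -/
theorem no_D_of_GG (h : Irr U T) (g : Gn (GG T) 6 z) (hz : DPt T z a b c d) : False := by
  have gz : GG T z := g.self
  have hG : Good U T z := h.good_three (gz.2 a b c d hz)
  obtain ⟨v, q, hv, hq, hc⟩ := start_l h gz.1 hz hG.1
  exact (dnet_l h).false g ⟨hv, gz⟩ ⟨hq, gz⟩ hc

end Vale.Agent.P032.R2.H306.Loc
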